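import Vale.Agent.P305.H529.Ball.Pair3
import Mathlib.Geometry.Euclidean.Angle.Unoriented.TriangleInequality
import Mathlib.Geometry.Euclidean.Angle.Unoriented.Basic

/-! Graphs of points with radii in an open cone of three-dimensional space with a metric whose
geodesics are the plane sectors: two sets of vertices which are disjoint and non-adjacent do not
both contain an odd cycle. The unit sphere with its angles is the main example. -/

set_option autoImplicit false

namespace Vale.Agent.P305.H735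

open Vale.Agent.P305.H529

/-- A continuous metric on an open cone `C` of directions (or a pseudometric) for which the point
`a • p + b • q`, with `a, b > 0`, lies on a geodesic from `p` to `q`. -/
structure IsConeMetric (C : Set (Fin 3 → ℝ)) (d : (Fin 3 → ℝ) → (Fin 3 → ℝ) → ℝ) : Prop where
  isOpen : IsOpen C
  cont : ContinuousOn (fun p : (Fin 3 → ℝ) × (Fin 3 → ℝ) => d p.1 p.2) (C ×ˢ C)
  symm : ∀ p ∈ C, ∀ q ∈ C, d p q = d q p
  tri : ∀ p ∈ C, ∀ q ∈ C, ∀ r ∈ C, d p r ≤ d p q + d q r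
  geo : ∀ p ∈ C, ∀ q ∈ C, ∀ a b : ℝ, 0 < a → 0 < b → a • p + b • q ≠ 0 →
    a • p + b • q ∈ C ∧ d p (a • p + b • q) + d (a • p + b • q) q ≤ d p q

/-- The vertices are discs of a cone metric, given by centres and radii, and different vertices are
adjacent if and only if the distance of the centres is larger than the sum of the radii. -/
def IsCoCone {V : Type} (G : SimpleGraph V) : Prop :=
  ∃ (C : Set (Fin 3 → ℝ)) (d : (Fin 3 → ℝ) → (Fin 3 → ℝ) → ℝ), IsConeMetric C d ∧
    ∃ (c : V → Fin 3 → ℝ) (r : V → ℝ), (∀ v, c v ∈ C) ∧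
      ∀ u v, u ≠ v → (G.Adj u v ↔ r u + r v < d (c u) (c v))

theorem exch {C : Set (Fin 3 → ℝ)} {d : (Fin 3 → ℝ) → (Fin 3 → ℝ) → ℝ} (h : IsConeMetric C d)
    {p q r w : Fin 3 → ℝ} (hp : p ∈ C) (hq : q ∈ C) (hr : r ∈ C) (hw : w ∈ C) {α β γ δ : ℝ}
    (hα : 0 < α) (hβ : 0 < β) (hγ : 0 < γ) (hδ : 0 < δ) (e : α • p + β • r = γ • q + δ • w)
    (hne : α • p + β • r ≠ 0) : d p q + d r w ≤ d p r + d q w := by
  obtain ⟨y, hy⟩ : ∃ y, y = α • p + β • r := ⟨_, rfl⟩
  have h1 := h.geo p hp r hr α β hα hβ hne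
  have h2 := h.geo q hq w hw γ δ hγ hδ (e ▸ hne)
  rw [← e] at h2
  rw [← hy] at h1 h2
  obtain ⟨hyC, h1⟩ := h1
  have h2 := h2.2
  have t1 := h.tri p hp y hyC q hq
  have t2 := h.tri r hr y hyC w hw
  have s1 := h.symm y hyC q hq
  have s2 := h.symm r hr y hyC
  linarith

theorem exch_det {C : Set (Fin 3 → ℝ)} {d : (Fin 3 → ℝ) → (Fin 3 → ℝ) → ℝ}
    (h : IsConeMetric C d) {p q r w : Fin 3 → ℝ} (hp : p ∈ C) (hq : q ∈ C) (hr : r ∈ C)
    (hw : w ∈ C) (h1 : 0 < det3 p q r * det3 p q w) (h2 : 0 < det3 r w p * det3 r w q) :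
    d p q + d r w ≤ d p r + d q w ∨ d p q + d r w ≤ d p w + d q r := by
  obtain ⟨D, hD⟩ : ∃ D, D = det3 p q r := ⟨_, rfl⟩
  obtain ⟨D', hD'⟩ : ∃ D, D = det3 p q w := ⟨_, rfl⟩
  obtain ⟨E, hE⟩ : ∃ D, D = det3 r w p := ⟨_, rfl⟩
  obtain ⟨E', hE'⟩ : ∃ D, D = det3 r w q := ⟨_, rfl⟩
  have cr : E' • p + D' • r = E • q + D • w := by
    ext l
    simp only [Pi.add_apply, Pi.smul_apply, smul_eq_mul]
    rw [hD, hD', hE, hE']
    simp only [det3]
    fin_cases l <;> simp <;> ring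
  have ne1 : ∀ α β : ℝ, β ≠ 0 → α • p + β • r ≠ 0 := by
    intro α β hβ h0
    have h3 : det3 p q (α • p + β • r) = β * D := by
      rw [hD]
      simp only [det3, Pi.add_apply, Pi.smul_apply, smul_eq_mul]
      ring
    rw [h0] at h3
    have h4 : det3 p q 0 = 0 := by simp [det3]
    rw [h4] at h3
    have h5 : D ≠ 0 := by
      rw [hD]
      exact left_ne_zero_of_mul h1.ne'
    exact mul_ne_zero hβ h5 h3.symm
  have ne2 : ∀ α β : ℝ, β ≠ 0 → α • p + β • w ≠ 0 := by
    intro α β hβ h0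
    have h3 : det3 p q (α • p + β • w) = β * D' := by
      rw [hD']
      simp only [det3, Pi.add_apply, Pi.smul_apply, smul_eq_mul]
      ring
    rw [h0] at h3
    have h4 : det3 p q 0 = 0 := by simp [det3]
    rw [h4] at h3
    have h5 : D' ≠ 0 := by
      rw [hD']
      exact right_ne_zero_of_mul h1.ne'
    exact mul_ne_zero hβ h5 h3.symm
  have crl : ∀ l, E' * p l + D' * r l = E * q l + D * w l := fun l => by
    have := congrFun cr l
    simpa only [Pi.add_apply, Pi.smul_apply, smul_eq_mul] using this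
  rw [← hD, ← hD'] at h1
  rw [← hE, ← hE'] at h2
  rcases mul_pos_iff.1 h1 with ⟨a1, a2⟩ | ⟨a1, a2⟩ <;> rcases mul_pos_iff.1 h2 with ⟨b1, b2⟩ | ⟨b1, b2⟩
  · left
    exact exch h hp hq hr hw b2 a2 b1 a1 cr (ne1 _ _ a2.ne')
  · right
    have cr' : (-E') • p + D • w = (-E) • q + D' • r := by
      ext l
      simp only [Pi.add_apply, Pi.smul_apply, smul_eq_mul]
      linear_combination -crl l
    have := exch h hp hq hw hr (neg_pos.2 b2) a1 (neg_pos.2 b1) a2 cr' (ne2 _ _ a1.ne')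
    rwa [h.symm w hw r hr] at this
  · right
    have cr' : E' • p + (-D) • w = E • q + (-D') • r := by
      ext l
      simp only [Pi.add_apply, Pi.smul_apply, smul_eq_mul]
      linear_combination crl l
    have := exch h hp hq hw hr b2 (neg_pos.2 a1) b1 (neg_pos.2 a2) cr'
      (ne2 _ _ (neg_pos.2 a1).ne')
    rwa [h.symm w hw r hr] at this
  · left
    have cr' : (-E') • p + (-D') • r = (-E) • q + (-D) • w := by
      ext l
      simp only [Pi.add_apply, Pi.smul_apply, smul_eq_mul]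
      linear_combination -crl l
    exact exch h hp hq hr hw (neg_pos.2 b2) (neg_pos.2 a2) (neg_pos.2 b1) (neg_pos.2 a1) cr'
      (ne1 _ _ (neg_pos.2 a2).ne')

theorem cocone_pair {V : Type} [Finite V] (G : SimpleGraph V) (hG : IsCoCone G) (S T : Set V)
    (hST : ∀ u ∈ S, ∀ v ∈ T, u ≠ v ∧ ¬ G.Adj u v) (hS : ¬ (G.induce S).IsBipartite)
    (hT : ¬ (G.induce T).IsBipartite) : False := by
  classical
  have : Fintype V := Fintype.ofFinite _
  obtain ⟨C, d, hC, c, r, hc, hadj⟩ := hG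
  obtain ⟨s, a, hs, has, haS, haadj⟩ := exists_odd_walk G S hS
  obtain ⟨t, b, ht, hbt, hbT, hbadj⟩ := exists_odd_walk G T hT
  have hs0 : 0 < s := hs.pos
  have ht0 : 0 < t := ht.pos
  have A := periodise (fun u v => G.Adj u v) hs0 a has haadj
  have B := periodise (fun u v => G.Adj u v) ht0 b hbt hbadj
  have key : ∀ u u' v v', G.Adj u u' → G.Adj v v' → (u ≠ v ∧ ¬ G.Adj u v) →
      (u' ≠ v' ∧ ¬ G.Adj u' v') →
      d (c u) (c v) + d (c u') (c v') < d (c u) (c u') + d (c v) (c v') := by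
    intro u u' v v' h1 h2 h3 h4
    have e1 := (hadj u u' h1.ne).1 h1
    have e2 := (hadj v v' h2.ne).1 h2
    have e3 := not_lt.1 fun h => h3.2 ((hadj u v h3.1).2 h)
    have e4 := not_lt.1 fun h => h4.2 ((hadj u' v' h4.1).2 h)
    linarith
  let f₀ : V × Fin 3 → ℝ := fun k => c k.1 k.2
  have cf : ∀ u, ContinuousAt (fun f : V × Fin 3 → ℝ => (fun l => f (u, l) : Fin 3 → ℝ)) f₀ :=
    fun u => Continuous.continuousAt (by fun_prop)
  have cd : ∀ u v, ContinuousAt (fun f : V × Fin 3 → ℝ =>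
      d (fun l => f (u, l)) (fun l => f (v, l))) f₀ := by
    intro u v
    have h1 : ContinuousAt (fun p : (Fin 3 → ℝ) × (Fin 3 → ℝ) => d p.1 p.2) (c u, c v) :=
      hC.cont.continuousAt ((hC.isOpen.prod hC.isOpen).mem_nhds ⟨hc u, hc v⟩)
    exact ContinuousAt.comp (f := fun f : V × Fin 3 → ℝ =>
      ((fun l => f (u, l) : Fin 3 → ℝ), (fun l => f (v, l) : Fin 3 → ℝ))) h1
      ((cf u).prodMk (cf v))
  have hev : ∀ᶠ f in nhds f₀, (∀ v, (fun l => f (v, l) : Fin 3 → ℝ) ∈ C) ∧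
      ∀ u u' v v', G.Adj u u' → G.Adj v v' → (u ≠ v ∧ ¬ G.Adj u v) → (u' ≠ v' ∧ ¬ G.Adj u' v') →
      d (fun l => f (u, l)) (fun l => f (v, l)) + d (fun l => f (u', l)) (fun l => f (v', l)) <
      d (fun l => f (u, l)) (fun l => f (u', l)) + d (fun l => f (v, l)) (fun l => f (v', l)) := by
    refine Filter.Eventually.and (Filter.eventually_all.2 fun v => ?_) ?_
    · exact (cf v).eventually (hC.isOpen.mem_nhds (hc v))
    · refine Filter.eventually_all.2 fun u => Filter.eventually_all.2 fun u' =>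
        Filter.eventually_all.2 fun v => Filter.eventually_all.2 fun v' =>
        Filter.eventually_all.2 fun h1 => Filter.eventually_all.2 fun h2 =>
        Filter.eventually_all.2 fun h3 => Filter.eventually_all.2 fun h4 => ?_
      exact ((cd u v).add (cd u' v')).eventually_lt ((cd u u').add (cd v v')) (key u u' v v' h1 h2 h3 h4)
  obtain ⟨U, hU1, hU, hf₀⟩ := eventually_nhds_iff.1 hev
  obtain ⟨f, hfU, hf⟩ := exists_generic (κ := V × Fin 3)
    (J := {p : V × V × V // p.1 ≠ p.2.1 ∧ p.2.1 ≠ p.2.2 ∧ p.1 ≠ p.2.2} ⊕ V)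
    (Sum.elim (fun k f => det3 (fun l => f (k.1.1, l)) (fun l => f (k.1.2.1, l))
      (fun l => f (k.1.2.2, l))) (fun v f => f (v, 0))) (by
      rintro (k | v)
      · exact An.det3 (fun l => an_coord _) (fun l => an_coord _) (fun l => an_coord _)
      · exact an_coord _) (by
      rintro (⟨⟨x, y, z⟩, h1, h2, h3⟩ | v)
      · simp only at h1 h2 h3
        refine ⟨fun k => if k.2 = 0 then (if k.1 = x then 1 else 0) else if k.2 = 1 then
          (if k.1 = y then 1 else 0) else (if k.1 = z then 1 else 0), ?_⟩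
        simp [det3, h1, h1.symm, h2, h2.symm, h3, h3.symm]
      · exact ⟨fun _ => 1, by simp⟩) U hU f₀ hf₀
  obtain ⟨gC, gk⟩ := hU1 f hfU
  have g3 : ∀ x y z : V, x ≠ y → y ≠ z → x ≠ z →
      det3 (fun l => f (x, l)) (fun l => f (y, l)) (fun l => f (z, l)) ≠ 0 :=
    fun x y z h1 h2 h3 => hf (Sum.inl ⟨(x, y, z), h1, h2, h3⟩)
  obtain ⟨i, -, j, -, h1, h2⟩ := proj_parity (s := s) (t := t)
    (fun i l => f (a (i % s), l)) (fun j l => f (b (j % t), l))
    (by simp) (by simp)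
    (fun i => hf (Sum.inr (a (i % s)))) (fun j => hf (Sum.inr (b (j % t))))
    (fun i j => g3 _ _ _ (A i).ne (hST _ (haS _) _ (hbT _)).1 (hST _ (haS _) _ (hbT _)).1)
    (fun i j => g3 _ _ _ (B j).ne (hST _ (haS _) _ (hbT _)).1.symm
      (hST _ (haS _) _ (hbT _)).1.symm) hs ht
  rcases exch_det hC (gC _) (gC _) (gC _) (gC _) h1 h2 with h3 | h3
  · have := gk (a (i % s)) (a ((i + 1) % s)) (b (j % t)) (b ((j + 1) % t)) (A i) (B j)
      (hST _ (haS _) _ (hbT _)) (hST _ (haS _) _ (hbT _))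
    linarith
  · have := gk (a (i % s)) (a ((i + 1) % s)) (b ((j + 1) % t)) (b (j % t)) (A i) (B j).symm
      (hST _ (haS _) _ (hbT _)) (hST _ (haS _) _ (hbT _))
    rw [hC.symm _ (gC (b ((j + 1) % t))) _ (gC (b (j % t)))] at this
    linarith

/-- The angle on the nonzero vectors. -/
theorem isConeMetric_angle : IsConeMetric {p : Fin 3 → ℝ | p ≠ 0} fun p q =>
    InnerProductGeometry.angle (WithLp.toLp 2 p : EuclideanSpace ℝ (Fin 3)) (WithLp.toLp 2 q) where
  isOpen := isOpen_ne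
  cont := by
    rintro ⟨p, q⟩ ⟨hp, hq⟩
    refine ContinuousAt.continuousWithinAt ?_
    have h1 := InnerProductGeometry.continuousAt_angle
      (x := ((WithLp.toLp 2 p : EuclideanSpace ℝ (Fin 3)), (WithLp.toLp 2 q : EuclideanSpace ℝ (Fin 3))))
      (by simpa using hp) (by simpa using hq)
    exact ContinuousAt.comp (x := (p, q)) (f := fun p : (Fin 3 → ℝ) × (Fin 3 → ℝ) =>
      ((WithLp.toLp 2 p.1 : EuclideanSpace ℝ (Fin 3)), (WithLp.toLp 2 p.2 : EuclideanSpace ℝ (Fin 3))))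
      h1 (Continuous.continuousAt (by fun_prop))
  symm := fun p _ q _ => InnerProductGeometry.angle_comm _ _
  tri := fun p _ q _ r _ => InnerProductGeometry.angle_le_angle_add_angle _ _ _
  geo := by
    intro p hp q hq a b ha hb hne
    refine ⟨hne, ?_⟩
    refine (InnerProductGeometry.angle_eq_angle_add_add_angle_add_of_mem_span ?_ ?_).symm.le
    · exact fun h => hne (by simpa only [WithLp.toLp_eq_zero] using h)
    · rw [Submodule.mem_span_pair]
      refine ⟨⟨a, ha.le⟩, ⟨b, hb.le⟩, ?_⟩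
      rw [WithLp.toLp_add, WithLp.toLp_smul, WithLp.toLp_smul]
      rfl

end Vale.Agent.P305.H735
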