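import Vale.Agent.P305.R2.H862.Defs
import Mathlib.Analysis.SpecialFunctions.Trigonometric.Bounds
import Mathlib.Analysis.Real.Pi.Bounds

/-! Sign graphs of rank three. -/

set_option autoImplicit false

namespace Vale.Agent.P305.R2.H735

open scoped InnerProductSpace

/-- `G` is a sign graph of rank three: the vertices are vectors of three-dimensional Euclidean
space, and two different vertices are adjacent iff their inner product is negative. -/
def IsObtuse {V : Type} (G : SimpleGraph V) : Prop :=
  ∃ x : V → EuclideanSpace ℝ (Fin 3), ∀ u v, u ≠ v → (G.Adj u v ↔ ⟪x u, x v⟫_ℝ < 0)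

/-- Sign graphs of rank three are given by angles. -/
theorem IsObtuse.isCoAngle {V : Type} {G : SimpleGraph V} (h : IsObtuse G) :
    H862.IsCoAngle G := by
  classical
  obtain ⟨x, hadj⟩ := h
  obtain ⟨e, he⟩ : ∃ e : EuclideanSpace ℝ (Fin 3), e ≠ 0 := exists_ne 0
  refine ⟨fun v => if x v = 0 then e else x v, fun v => if x v = 0 then 4 else Real.pi / 4,
    fun v => ?_, fun u v huv => ?_⟩
  · by_cases h0 : x v = 0
    · simpa [h0] using he
    · simp [h0]
  · have hpi := Real.pi_pos
    have hpi4 := Real.pi_le_four
    have hge : ∀ v, 0 ≤ (if x v = 0 then (4 : ℝ) else Real.pi / 4) := by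
      intro v
      split_ifs <;> linarith
    rw [hadj u v huv]
    by_cases hu : x u = 0
    · simp only [hu, inner_zero_left, lt_self_iff_false, if_true, false_iff, not_lt]
      exact (InnerProductGeometry.angle_le_pi _ _).trans
        (hpi4.trans (le_add_of_nonneg_right (hge v)))
    · by_cases hv : x v = 0
      · simp only [hv, inner_zero_right, lt_self_iff_false, if_true, false_iff, not_lt]
        exact (InnerProductGeometry.angle_le_pi _ _).trans
          (hpi4.trans (le_add_of_nonneg_left (hge u)))
      · simp only [hu, hv, if_false]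
        rw [show Real.pi / 4 + Real.pi / 4 = Real.pi / 2 by ring]
        have hpos : 0 < ‖x u‖ * ‖x v‖ := mul_pos (norm_pos_iff.2 hu) (norm_pos_iff.2 hv)
        rw [InnerProductGeometry.angle, ← not_le, ← not_le, Real.arccos_le_pi_div_two,
          le_div_iff₀ hpos, zero_mul]

end Vale.Agent.P305.R2.H735
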