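import Vale.Agent.P305.R2.H735.Cap
import Vale.Agent.P305.R2.H347.Cap

/-! Discs on the sphere: complements of intersection graphs of spherical caps, and sign graphs of
rank three. -/

set_option autoImplicit false

namespace Vale.Agent.P305.H735

open Vale.Agent.P305.H529
open scoped InnerProductSpace

/-- The closed spherical cap with the centre `c` and the angular radius `ρ`. -/
def cap (c : EuclideanSpace ℝ (Fin 3)) (ρ : ℝ) : Set (EuclideanSpace ℝ (Fin 3)) :=
  {x | ‖x‖ = 1 ∧ InnerProductGeometry.angle c x ≤ ρ}

/-- `G` is the complement of an intersection graph of closed caps of the unit sphere of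
three-dimensional Euclidean space, of any radii `≥ 0`: two different vertices are adjacent in `G`
iff their caps are disjoint. -/
def IsCoCap {V : Type} (G : SimpleGraph V) : Prop :=
  ∃ (c : V → EuclideanSpace ℝ (Fin 3)) (ρ : V → ℝ), (∀ v, ‖c v‖ = 1) ∧ (∀ v, 0 ≤ ρ v) ∧
    ∀ u v, u ≠ v → (G.Adj u v ↔ Disjoint (cap (c u) (ρ u)) (cap (c v) (ρ v)))

/-- `G` is a sign graph of rank three: the vertices are vectors of three-dimensional Euclidean
space, and two different vertices are adjacent iff their inner product is negative. -/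
def IsObtuse {V : Type} (G : SimpleGraph V) : Prop :=
  ∃ x : V → EuclideanSpace ℝ (Fin 3), ∀ u v, u ≠ v → (G.Adj u v ↔ ⟪x u, x v⟫_ℝ < 0)

/-- The vertices are nonzero vectors of three-dimensional Euclidean space with a real number each,
and two different vertices are adjacent iff the angle of the vectors is larger than the sum of the
two numbers. -/
def IsCoAngle {V : Type} (G : SimpleGraph V) : Prop :=
  ∃ (c : V → EuclideanSpace ℝ (Fin 3)) (r : V → ℝ), (∀ v, c v ≠ 0) ∧
    ∀ u v, u ≠ v → (G.Adj u v ↔ r u + r v < InnerProductGeometry.angle (c u) (c v))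

theorem IsCoAngle.coCone {V : Type} {G : SimpleGraph V} (h : IsCoAngle G) : IsCoCone G := by
  obtain ⟨c, r, hc, hadj⟩ := h
  exact ⟨_, _, isConeMetric_angle, fun v => WithLp.ofLp (c v), r,
    fun v h => hc v (by simpa using h), hadj⟩

theorem IsCoCap.coAngle {V : Type} {G : SimpleGraph V} (h : IsCoCap G) : IsCoAngle G := by
  obtain ⟨c, ρ, hc, hρ, hadj⟩ := h
  refine ⟨c, ρ, fun v h => ?_, fun u v huv => ?_⟩
  · have := hc v
    rw [h, norm_zero] at this
    exact zero_ne_one this
  · rw [hadj u v huv]
    exact R2.H347.cap_disjoint_iff (hc u) (hc v) (hρ u) (hρ v)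

theorem IsObtuse.coAngle {V : Type} {G : SimpleGraph V} (h : IsObtuse G) : IsCoAngle G := by
  classical
  obtain ⟨x, hadj⟩ := h
  obtain ⟨e, he⟩ : ∃ e : EuclideanSpace ℝ (Fin 3), e ≠ 0 := exists_ne 0
  refine ⟨fun v => if x v = 0 then e else x v, fun v => if x v = 0 then 4 else Real.pi / 4,
    fun v => ?_, fun u v huv => ?_⟩
  · by_cases h0 : x v = 0
    · simpa [h0] using he
    · simp [h0]
  · have hpi := Real.pi_pos
    have hpi4 := Real.pi_le_four
    rw [hadj u v huv]
    by_cases hu : x u = 0
    · simp only [hu, inner_zero_left, lt_self_iff_false, if_true, false_iff, not_lt]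
      refine (InnerProductGeometry.angle_le_pi _ _).trans (hpi4.trans ?_)
      split_ifs <;> linarith
    · by_cases hv : x v = 0
      · simp only [hv, inner_zero_right, lt_self_iff_false, if_true, false_iff, not_lt]
        refine (InnerProductGeometry.angle_le_pi _ _).trans (hpi4.trans ?_)
        split_ifs <;> linarith
      · simp only [hu, hv, if_false]
        rw [show Real.pi / 4 + Real.pi / 4 = Real.pi / 2 by ring]
        have hpos : 0 < ‖x u‖ * ‖x v‖ := mul_pos (norm_pos_iff.2 hu) (norm_pos_iff.2 hv)
        rw [InnerProductGeometry.angle, ← not_le, ← not_le, Real.arccos_le_pi_div_two,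
          le_div_iff₀ hpos, zero_mul]

/-- Two sets of vertices which are disjoint and non-adjacent do not both contain an odd cycle. -/
theorem angle_pair {V : Type} [Finite V] (G : SimpleGraph V) (hG : IsCoAngle G) (S T : Set V)
    (hST : ∀ u ∈ S, ∀ v ∈ T, u ≠ v ∧ ¬ G.Adj u v) (hS : ¬ (G.induce S).IsBipartite)
    (hT : ¬ (G.induce T).IsBipartite) : False :=
  cocone_pair G hG.coCone S T hST hS hT

end Vale.Agent.P305.H735
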